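import Vale.Agent.P252.Main

open Vale.Agent.P252 in
theorem Vale.Agent.Results.P252.Entire.result : ∀ n : ℕ, 10 ≤ n → ∃ u : (Fin n → ℝ) → ℝ,
    ContDiff ℝ (⊤ : ℕ∞) u ∧ (∀ x, (hess u x).PosDef) ∧ AffineMaximal u ∧
    ¬ ∃ (A : Matrix (Fin n) (Fin n) ℝ) (b : Fin n → ℝ) (c : ℝ),
      ∀ x, u x = 1 / 2 * (x ⬝ᵥ A.mulVec x) + b ⬝ᵥ x + c := by
  intro n hn
  obtain ⟨m, rfl⟩ : ∃ m, n = m + 1 := ⟨n - 1, by omega⟩
  obtain ⟨u, h1, h2, h3, h4⟩ := exists_solution (m := m) (by omega)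
  refine ⟨u, h1, h2, h3, ?_⟩
  rintro ⟨A, b, c, h⟩
  have e : ∀ t : ℝ, Real.sqrt (1 + t ^ 2) = 1 / 2 * (A 0 0 * t ^ 2) + b 0 * t + c := by
    intro t
    rw [← h4, h]
    simp
    ring
  have s : ∀ t r : ℝ, 0 ≤ r → 1 + t ^ 2 = r ^ 2 → r = 1 / 2 * (A 0 0 * t ^ 2) + b 0 * t + c := by
    intro t r hr ht
    rw [← e, ht, Real.sqrt_sq hr]
  have a0 := s 0 1 (by norm_num) (by norm_num)
  have a1 := s (3 / 4) (5 / 4) (by norm_num) (by norm_num)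
  have a2 := s (-(3 / 4)) (5 / 4) (by norm_num) (by norm_num)
  have a3 := s (4 / 3) (5 / 3) (by norm_num) (by norm_num)
  linarith
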